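import Vale.Agent.Snaky.Root

/-!
# Games with an escape line

`WL X n M l`: Breaker is to move, Maker owns `M`, Breaker has made the claims `l` (oldest first), and
within `n` further claims Maker owns a copy or the list of the claims of Breaker has passed through
a list in `X`.
-/

namespace Vale.Agent.Snaky

open Set

def WL (X : List Cell → Prop) : ℕ → Finset Cell → List Cell → Prop
  | 0, M, l => OwnsCopy M ∨ X l
  | n + 1, M, l => OwnsCopy M ∨ X l ∨ ∀ b, b ∉ M → b ∉ l →
      ∃ m, m ∉ M ∧ m ∉ l ∧ m ≠ b ∧ WL X n (insert m M) (l ++ [b])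

theorem WL.of_WB {X : List Cell → Prop} : ∀ {n : ℕ} {M B : Finset Cell} {l : List Cell},
    WB n M B → B = l.toFinset → WL X n M l
  | 0, _, _, _, h, _ => Or.inl h
  | n + 1, M, B, l, h, hB => by
      subst hB
      rcases h with h | h
      · exact Or.inl h
      · right; right
        intro b hbM hbl
        obtain ⟨m, h1, h2, h3⟩ := h b hbM (by rw [List.mem_toFinset]; exact hbl)
        rw [Finset.mem_insert, List.mem_toFinset, not_or] at h2
        refine ⟨m, h1, h2.2, h2.1, WL.of_WB h3 ?_⟩
        ext x
        simp only [Finset.mem_insert, List.mem_toFinset, List.mem_append, List.mem_singleton]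
        tauto

theorem WL.of_X {X : List Cell → Prop} {n : ℕ} {M : Finset Cell} {l : List Cell} (h : X l) :
    WL X n M l := by
  cases n
  · exact Or.inr h
  · exact Or.inr (Or.inl h)

theorem WL.of_owns {X : List Cell → Prop} {n : ℕ} {M : Finset Cell} {l : List Cell}
    (h : OwnsCopy M) : WL X n M l := by
  cases n
  · exact Or.inl h
  · exact Or.inl h

theorem WL.image {X : List Cell → Prop} {e : Cell ≃ Cell} (he : Preserves e)
    (hX : ∀ l, X l → X (l.map e)) :
    ∀ {n : ℕ} {M : Finset Cell} {l : List Cell}, WL X n M l → WL X n (M.image e) (l.map e)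
  | 0, _, _, h => h.imp (OwnsCopy.image he) (hX _)
  | n + 1, M, l, h => by
      rcases h with h | h | h
      · exact Or.inl (h.image he)
      · exact Or.inr (Or.inl (hX _ h))
      · right; right
        intro b hbM hbl
        have h1 : e.symm b ∉ M := fun hb => hbM (Finset.mem_image.2 ⟨_, hb, by simp⟩)
        have h2 : e.symm b ∉ l := fun hb => hbl (List.mem_map.2 ⟨_, hb, by simp⟩)
        obtain ⟨m, hm1, hm2, hm3, hw⟩ := h _ h1 h2
        have hw' := hw.image he hX
        rw [Finset.image_insert, List.map_append, List.map_singleton, Equiv.apply_symm_apply] at hw'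
        refine ⟨e m, ?_, ?_, ?_, hw'⟩
        · intro hm
          obtain ⟨x, hx, hxe⟩ := Finset.mem_image.1 hm
          exact hm1 (e.injective hxe ▸ hx)
        · intro hm
          obtain ⟨x, hx, hxe⟩ := List.mem_map.1 hm
          exact hm2 (e.injective hxe ▸ hx)
        · intro hm
          apply hm3
          rw [← hm]
          simp

/-! ## Strategy extraction -/

open Classical in
noncomputable def replyL (X : List Cell → Prop) (n : ℕ) (M : Finset Cell) (l : List Cell) : Cell :=
  if h : ∃ m, m ∉ M ∧ m ∉ l ∧ WL X n (insert m M) l then h.choose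
  else (exists_fresh (M ∪ l.toFinset)).choose

theorem replyL_fresh (X : List Cell → Prop) (n : ℕ) (M : Finset Cell) (l : List Cell) :
    replyL X n M l ∉ M ∧ replyL X n M l ∉ l := by
  unfold replyL
  split
  · rename_i h
    exact ⟨h.choose_spec.1, h.choose_spec.2.1⟩
  · have h := (exists_fresh (M ∪ l.toFinset)).choose_spec
    rw [Finset.notMem_union, List.mem_toFinset] at h
    exact h

theorem replyL_spec {X : List Cell → Prop} {n : ℕ} {M : Finset Cell} {l : List Cell}
    (h : ∃ m, m ∉ M ∧ m ∉ l ∧ WL X n (insert m M) l) :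
    WL X n (insert (replyL X n M l) M) l := by
  unfold replyL
  rw [dif_pos h]
  exact h.choose_spec.2.2

structure SL where
  n : ℕ
  M : Finset Cell
  l : List Cell
  last : Cell

noncomputable def SL.step (X : List Cell → Prop) (s : SL) (b : Cell) : SL :=
  ⟨s.n - 1, insert (replyL X (s.n - 1) s.M (s.l ++ [b])) s.M, s.l ++ [b],
    replyL X (s.n - 1) s.M (s.l ++ [b])⟩

noncomputable def sl (X : List Cell → Prop) (n : ℕ) (o : Cell) (l : List Cell) : SL :=
  l.foldl (SL.step X) ⟨n, {o}, [], o⟩

noncomputable def stratL (X : List Cell → Prop) (n : ℕ) (o : Cell) : Strategy :=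
  fun l => (sl X n o l).last

theorem sl_range_succ (X : List Cell → Prop) (n : ℕ) (o : Cell) (b : ℕ → Cell) (k : ℕ) :
    sl X n o ((List.range (k + 1)).map b) = (sl X n o ((List.range k).map b)).step X (b k) := by
  rw [List.range_succ, List.map_append, List.map_singleton]
  simp [sl, List.foldl_append]

theorem sl_inv (X : List Cell → Prop) (n : ℕ) (o : Cell) (b : ℕ → Cell) (k : ℕ) :
    (sl X n o ((List.range k).map b)).M = makerCells (stratL X n o) b (k + 1) ∧
    (sl X n o ((List.range k).map b)).l = (List.range k).map b ∧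
    (sl X n o ((List.range k).map b)).n = n - k := by
  induction k with
  | zero =>
      refine ⟨?_, ?_, ?_⟩
      · simp [makerCells, makerMove, stratL, sl]
      · simp [sl]
      · simp [sl]
  | succ k ih =>
      obtain ⟨h1, h2, h3⟩ := ih
      refine ⟨?_, ?_, ?_⟩
      · rw [makerCells_succ, ← h1, makerMove]
        unfold stratL
        rw [sl_range_succ]
        rfl
      · rw [sl_range_succ]
        show (sl X n o ((List.range k).map b)).l ++ [b k] = _
        rw [h2, List.range_succ, List.map_append, List.map_singleton]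
      · rw [sl_range_succ]
        show (sl X n o ((List.range k).map b)).n - 1 = n - (k + 1)
        rw [h3]
        omega

theorem makerMove_stratL_succ (X : List Cell → Prop) (n : ℕ) (o : Cell) (b : ℕ → Cell) (k : ℕ) :
    makerMove (stratL X n o) b (k + 1) =
      replyL X (n - k - 1) (makerCells (stratL X n o) b (k + 1)) ((List.range (k + 1)).map b) := by
  obtain ⟨h1, h2, h3⟩ := sl_inv X n o b k
  unfold makerMove
  conv_lhs => unfold stratL
  rw [sl_range_succ]
  show replyL X ((sl X n o ((List.range k).map b)).n - 1) (sl X n o ((List.range k).map b)).M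
    ((sl X n o ((List.range k).map b)).l ++ [b k]) = _
  rw [h1, h2, h3, List.range_succ, List.map_append, List.map_singleton]

theorem mem_range_map {b : ℕ → Cell} {k : ℕ} {x : Cell} :
    x ∈ (List.range k).map b ↔ x ∈ breakerCells b k := by
  simp [breakerCells]

theorem makerMove_stratL_zero (X : List Cell → Prop) (n : ℕ) (o : Cell) (b : ℕ → Cell) :
    makerMove (stratL X n o) b 0 = o := by
  simp [makerMove, stratL, sl]

/-- A strategy from a position won up to escapes. -/
theorem wins_of_WL {X : List Cell → Prop} {n : ℕ} {o : Cell} (h : WL X n {o} []) {b : ℕ → Cell}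
    (hb : BreakerLegal (stratL X n o) b n) :
    MakerLegal (stratL X n o) b n ∧ (OwnsCopy (makerCells (stratL X n o) b (n + 1)) ∨
      ∃ k ≤ n, X ((List.range k).map b)) := by
  have legal : MakerLegal (stratL X n o) b n := by
    intro k _
    cases k with
    | zero => simp [makerCells, breakerCells]
    | succ k =>
        rw [makerMove_stratL_succ]
        have h := replyL_fresh X (n - k - 1) (makerCells (stratL X n o) b (k + 1))
          ((List.range (k + 1)).map b)
        exact ⟨h.1, fun h' => h.2 (mem_range_map.2 h')⟩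
  refine ⟨legal, ?_⟩
  by_contra hcon
  rw [not_or] at hcon
  obtain ⟨hc1, hc2⟩ := hcon
  have hc2' : ∀ k ≤ n, ¬ X ((List.range k).map b) := fun k hk hX => hc2 ⟨k, hk, hX⟩
  have mono : ∀ k ≤ n, OwnsCopy (makerCells (stratL X n o) b (k + 1)) → False := by
    intro k hk ho
    apply hc1
    refine ho.mono ?_
    unfold makerCells
    exact Finset.image_subset_image (by
      intro x hx
      rw [Finset.mem_range] at hx ⊢
      omega)
  have key : ∀ k ≤ n, WL X (n - k) (makerCells (stratL X n o) b (k + 1)) ((List.range k).map b) := by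
    intro k
    induction k with
    | zero =>
        intro _
        have h1 := (sl_inv X n o b 0).1
        rw [← h1]
        simpa [sl] using h
    | succ k ih =>
        intro hk
        have hw := ih (by omega)
        obtain ⟨hbM, hbB⟩ := hb k (by omega)
        have hnk : n - k = (n - k - 1) + 1 := by omega
        rw [hnk] at hw
        rcases hw with hw | hw | hw
        · exact (mono k (by omega) hw).elim
        · exact (hc2' k (by omega) hw).elim
        · obtain ⟨m, hm1, hm2, hm3, hm4⟩ := hw (b k) hbM (fun h => hbB (mem_range_map.1 h))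
          have hl : (List.range k).map b ++ [b k] = (List.range (k + 1)).map b := by
            rw [List.range_succ, List.map_append, List.map_singleton]
          rw [hl] at hm4
          have hex : ∃ m, m ∉ makerCells (stratL X n o) b (k + 1) ∧
              m ∉ (List.range (k + 1)).map b ∧
              WL X (n - k - 1) (insert m (makerCells (stratL X n o) b (k + 1)))
                ((List.range (k + 1)).map b) := by
            refine ⟨m, hm1, ?_, hm4⟩
            rw [← hl, List.mem_append, List.mem_singleton, not_or]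
            exact ⟨hm2, hm3⟩
          have hs := replyL_spec hex
          rw [← makerMove_stratL_succ, ← makerCells_succ] at hs
          have e : n - (k + 1) = n - k - 1 := by omega
          rw [e]
          exact hs
  have h1 := key n le_rfl
  rw [Nat.sub_self] at h1
  rcases h1 with h1 | h1
  · exact hc1 h1
  · exact hc2' n le_rfl h1

/-! ## Replies in a position on the line -/

/-- A checked list of answers in a position with Maker's cells `decode R0` and Breaker's cells `B0`
outside `decode F0`: every reply of Breaker outside Maker's cells whose index is not in the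
exception set has an answer. -/
theorem reply_of_chk {t : Tr} (ht : t.all (chkPat t.get) = true) {n : ℕ} {T : Ans} {R0 F0 acc : ℕ}
    (hT : chkList t.get (n + 1) (Nat.shiftLeft R0 512) (Nat.shiftLeft F0 512) T
      (Nat.shiftLeft acc 512) = true) (hne : T ≠ Ans.nil) {M B : Finset Cell}
    (hM : decode R0 ⊆ (M : Set Cell)) (hB : ∀ x ∈ B, x ∉ decode F0) (hd : Disjoint M B)
    {b : Cell} (hbM : b ∉ M)
    (ho : b ∈ decode F0 → b ∈ decode acc) :
    ∃ m, m ∉ M ∧ m ∉ B ∧ m ≠ b ∧ WB n (insert m M) (insert b B) := by
  have main : ∀ m k s qn qR qZ qT, t.get k = some (Pat.mk qn qR qZ qT) →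
      chkAns qn qR qZ (n + 1) (Nat.shiftLeft R0 512) (Nat.shiftLeft F0 512) m s = true →
      ¬ (0 ≤ b.1 ∧ b.1 < 32 ∧ tb (bad qZ m s) (b.1 + 32 * b.2 + 512)) →
      ∃ m, m ∉ M ∧ m ∉ B ∧ m ≠ b ∧ WB n (insert m M) (insert b B) := by
    intro m k s qn qR qZ qT h1 h2 h3
    obtain ⟨hpR, hpZ, -, -⟩ := chkPat_spec (Tr.all_get ht h1)
    have hw := sound ht (qn + 1) k qn qR qZ qT (Nat.lt_succ_self _) h1
    obtain ⟨g0, R', Z', g1, g2, g3, g4, g5⟩ := chkAns_spec h2 hpR hpZ hw
    obtain ⟨g6, g7⟩ := g5 b h3
    have hZb : Disjoint Z' ((insert b B : Finset Cell) : Set Cell) := by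
      rw [Finset.coe_insert, Set.disjoint_insert_right]
      refine ⟨g7, ?_⟩
      rw [Set.disjoint_left]
      intro x hx hxB
      exact hB x (by exact_mod_cast hxB) (g3 hx)
    have hgen : ∀ x, x ∉ M → x ∉ B → x ≠ b → R' ⊆ ((insert x M : Finset Cell) : Set Cell) →
        WB n (insert x M) (insert b B) := by
      intro x hx1 hx2 hx3 hx4
      refine (g4.mono (Nat.lt_succ_iff.1 g0)) _ _ ?_ hx4 hZb
      rw [Finset.disjoint_insert_left, Finset.mem_insert, not_or, Finset.disjoint_insert_right]
      exact ⟨⟨hx3, hx2⟩, hbM, hd⟩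
    by_cases hm : mcell m ∈ M
    · obtain ⟨x, hx⟩ := exists_fresh (M ∪ insert b B)
      rw [Finset.notMem_union, Finset.mem_insert, not_or] at hx
      refine ⟨x, hx.1, hx.2.2, hx.2.1, hgen x hx.1 hx.2.2 hx.2.1 ?_⟩
      intro y hy
      rw [Finset.coe_insert]
      right
      rcases g2 hy with h | h
      · rw [h]; exact_mod_cast hm
      · exact hM h
    · have h6 : mcell m ∉ B := fun h => hB _ h g1
      refine ⟨mcell m, hm, h6, g6, hgen _ hm h6 g6 ?_⟩
      rw [Finset.coe_insert]
      exact g2.trans (Set.insert_subset_insert hM)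
  have hone : ∀ m k s qn qR qZ qT, t.get k = some (Pat.mk qn qR qZ qT) →
      chkAns qn qR qZ (n + 1) (Nat.shiftLeft R0 512) (Nat.shiftLeft F0 512) m s = true →
      b ∉ decode F0 →
      ∃ m, m ∉ M ∧ m ∉ B ∧ m ≠ b ∧ WB n (insert m M) (insert b B) := by
    intro m k s qn qR qZ qT h1 h2 h3
    refine main m k s qn qR qZ qT h1 h2 ?_
    rintro ⟨b1, b2, b3⟩
    apply h3
    refine ⟨b1, b2, ?_⟩
    unfold chkAns at h2
    obtain ⟨-, h6⟩ := cond_and h2
    obtain ⟨-, h6⟩ := cond_and h6
    obtain ⟨-, h6⟩ := cond_and h6
    have h7 := tb_of_sub (Nat.eq_of_beq_eq_true h6) b3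
    rw [tb_shiftLeft] at h7
    have e : b.1 + 32 * b.2 + 512 - ((512 : ℕ) : ℤ) = b.1 + 32 * b.2 := by push_cast; ring
    rw [e] at h7
    exact h7
  by_cases hbF : b ∈ decode F0
  · obtain ⟨b1, b2, b3⟩ := ho hbF
    have e : b.1 + 32 * b.2 + 512 - ((512 : ℕ) : ℤ) = b.1 + 32 * b.2 := by push_cast; ring
    have h1 : tb (Nat.shiftLeft acc 512) (b.1 + 32 * b.2 + 512) := by
      rw [tb_shiftLeft, e]
      exact b3
    have h2 : ¬ tb (Nat.shiftLeft R0 512) (b.1 + 32 * b.2 + 512) := by
      rw [tb_shiftLeft, e]
      intro h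
      exact hbM (by exact_mod_cast hM (show b ∈ decode R0 from ⟨b1, b2, h⟩))
    obtain ⟨m, k, s, qn, qR, qZ, qT, g1, g2, g3⟩ := chkList_spec hT _ h2 h1
    exact main m k s qn qR qZ qT g1 g2 (fun h => g3 h.2.2)
  · cases T with
    | nil => exact absurd rfl hne
    | cons m k s T =>
        obtain ⟨qn, qR, qZ, qT, g1, g2, -⟩ := chkList_cons hT
        exact hone m k s qn qR qZ qT g1 g2 hbF

end Vale.Agent.Snaky
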