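/-!
# Certificate data types (no imports, so that the data files are cheap)
-/

namespace Vale.Agent.Snaky

/-- Answers of a pattern: claim the cell with index `m` and use the pattern number `k`, shifted by
`s`.  Indices `m`, `s` are relative to a frame shifted by `512`. -/
inductive Ans where
  | nil : Ans
  | cons : Nat → Nat → Nat → Ans → Ans

/-- A pattern: the number of further claims, the cells Maker must own, the cells that Breaker must not
own, and the answers. -/
inductive Pat where
  | mk : Nat → Nat → Nat → Ans → Pat

/-- A tree of patterns, indexed by bits. -/
inductive Tr where
  | nil : Tr
  | leaf : Pat → Tr
  | node : Nat → Tr → Tr → Tr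

end Vale.Agent.Snaky
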