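import Vale.Agent.Snaky.Game
import Vale.Agent.Snaky.Types

/-!
# A checker for certificates of winning patterns

A set of cells of the strip `0 ≤ x < 32`, `0 ≤ y` is coded by the natural number whose bit
`x + 32 y` is set iff `(x, y)` belongs to it.
-/

namespace Vale.Agent.Snaky

open Set

/-- bit `j` of `m` for an integer `j` (false for negative `j`) -/
def tb (m : ℕ) (j : ℤ) : Prop := 0 ≤ j ∧ m.testBit j.toNat = true

def decode (m : ℕ) : Set Cell := {p | 0 ≤ p.1 ∧ p.1 < 32 ∧ tb m (p.1 + 32 * p.2)}

theorem tb_shiftLeft {m s : ℕ} {j : ℤ} : tb (Nat.shiftLeft m s) j ↔ tb m (j - s) := by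
  show tb (m <<< s) j ↔ tb m (j - s)
  unfold tb
  rw [Nat.testBit_shiftLeft]
  simp only [Bool.and_eq_true, decide_eq_true_eq]
  constructor
  · rintro ⟨h1, h2, h3⟩
    have e : (j - s).toNat = j.toNat - s := by omega
    refine ⟨by omega, ?_⟩
    rw [e]; exact h3
  · rintro ⟨h1, h2⟩
    have e : (j - s).toNat = j.toNat - s := by omega
    refine ⟨by omega, by omega, ?_⟩
    rw [← e]; exact h2

theorem tb_or {a b : ℕ} {j : ℤ} : tb (Nat.lor a b) j ↔ tb a j ∨ tb b j := by
  show tb (a ||| b) j ↔ tb a j ∨ tb b j
  unfold tb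
  rw [Nat.testBit_or]
  simp only [Bool.or_eq_true]
  tauto

theorem tb_and {a b : ℕ} {j : ℤ} : tb (Nat.land a b) j ↔ tb a j ∧ tb b j := by
  show tb (a &&& b) j ↔ tb a j ∧ tb b j
  unfold tb
  rw [Nat.testBit_and]
  simp only [Bool.and_eq_true]
  tauto

theorem tb_zero {j : ℤ} : ¬ tb 0 j := by
  unfold tb; simp

theorem tb_one_shiftLeft {m : ℕ} {j : ℤ} : tb (Nat.shiftLeft 1 m) j ↔ j = m := by
  rw [tb_shiftLeft]
  unfold tb
  constructor
  · rintro ⟨h1, h2⟩
    rw [Nat.testBit_one_eq_true_iff_self_eq_zero] at h2
    omega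
  · rintro rfl
    simp

theorem tb_of_sub {a b : ℕ} (h : Nat.lor a b = b) {j : ℤ} (hj : tb a j) : tb b j := by
  rw [← h, tb_or]; exact Or.inl hj

/-- columns `8 ≤ x < 24` of the rows `0 ≤ y < 16` -/
def cols : ℕ := 0x00ffff0000ffff0000ffff0000ffff0000ffff0000ffff0000ffff0000ffff0000ffff0000ffff0000ffff0000ffff0000ffff0000ffff0000ffff0000ffff00

theorem cols_lt : cols < 2 ^ 512 := by
  have h : Nat.blt cols (2 ^ 512) = true := by decide +kernel
  simpa [Nat.blt_eq] using h

theorem cols_bits : ∀ i < 512, cols.testBit i = true → 8 ≤ i % 32 ∧ i % 32 < 24 := by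
  decide +kernel

theorem tb_cols {j : ℤ} (h : tb cols j) : 8 ≤ j % 32 ∧ j % 32 < 24 := by
  obtain ⟨h0, h1⟩ := h
  have hlt : j.toNat < 512 := by
    by_contra hge
    have : cols.testBit j.toNat = false :=
      Nat.testBit_lt_two_pow (lt_of_lt_of_le cols_lt (Nat.pow_le_pow_right (by norm_num) (by omega)))
    rw [this] at h1
    exact Bool.false_ne_true h1
  have := cols_bits _ hlt h1
  omega

noncomputable def Tr.get (t : Tr) : ℕ → Option Pat :=
  Tr.rec (motive := fun _ => ℕ → Option Pat) (fun _ => none) (fun p _ => some p)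
    (fun i _ _ gl gr k => cond (Nat.beq (Nat.land k i) 0) (gl k) (gr k)) t

noncomputable def Tr.all (f : Pat → Bool) (t : Tr) : Bool :=
  Tr.rec (motive := fun _ => Bool) true f (fun _ _ _ bl br => cond bl br false) t

theorem Tr.all_node {f : Pat → Bool} {i : ℕ} {l r : Tr} (hl : l.all f = true) (hr : r.all f = true) :
    (Tr.node i l r).all f = true := by
  show cond (l.all f) (r.all f) false = true
  rw [hl, hr]
  rfl

theorem Tr.all_get {f : Pat → Bool} {t : Tr} (h : t.all f = true) {k : ℕ} {p : Pat}
    (h' : t.get k = some p) : f p = true := by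
  induction t with
  | nil => simp [Tr.get] at h'
  | leaf q =>
      have : q = p := by simpa [Tr.get] using h'
      subst this
      exact h
  | node i l r ihl ihr =>
      have h1 : cond (l.all f) (r.all f) false = true := h
      have h2 : cond (Nat.beq (Nat.land k i) 0) (l.get k) (r.get k) = some p := h'
      have h3 : l.all f = true ∧ r.all f = true := by
        cases hl : l.all f
        · rw [hl] at h1; exact absurd h1 (by simp)
        · rw [hl] at h1; exact ⟨rfl, h1⟩
      cases hb : Nat.beq (Nat.land k i) 0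
      · rw [hb] at h2; exact ihr h3.2 h2
      · rw [hb] at h2; exact ihl h3.1 h2

/-- masks of the eight copies used as terminal patterns -/
def isCopyMask (c : ℕ) : Bool :=
  cond (Nat.beq c 0x600000003c000000000000000000000000000000000000000000000000000) true <|
  cond (Nat.beq c 0x780000000c000000000000000000000000000000000000000000000000000) true <|
  cond (Nat.beq c 0x800000008000000080000000c00000004000000000000000000000000000000000000000000000000000) true <|
  cond (Nat.beq c 0x80000000c000000040000000400000004000000000000000000000000000000000000000000000000000) true <|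
  cond (Nat.beq c 0xc00000078000000000000000000000000000000000000000000000000000) true <|
  cond (Nat.beq c 0x400000004000000040000000c00000008000000000000000000000000000000000000000000000000000) true <|
  cond (Nat.beq c 0x40000000c000000080000000800000008000000000000000000000000000000000000000000000000000) true <|
  Nat.beq c 0x3c00000060000000000000000000000000000000000000000000000000000

/-- the check of one answer; `R'`, `F'` are the shifted masks of `R` and `R ||| Z` -/
def chkAns (qn qR qZ n R' F' m s : ℕ) : Bool :=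
  cond (Nat.ble (Nat.succ qn) n)
    (cond (cond (Nat.ble (Nat.mod s 32) 8) true (Nat.ble 24 (Nat.mod s 32)))
      (cond (Nat.beq (Nat.lor (Nat.shiftLeft qR s) (Nat.lor R' (Nat.shiftLeft 1 m)))
          (Nat.lor R' (Nat.shiftLeft 1 m)))
        (Nat.beq (Nat.lor (Nat.lor (Nat.shiftLeft qZ s) (Nat.shiftLeft 1 m)) F') F') false)
      false) false

/-- check all answers and intersect the sets of bad claims of Breaker -/
noncomputable def chkList (g : ℕ → Option Pat) (n R' F' : ℕ) (T : Ans) : ℕ → Bool :=
  Ans.rec (motive := fun _ => ℕ → Bool) (fun acc => Nat.beq (Nat.lor acc R') R')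
    (fun m k s _ ih acc =>
      Option.rec (motive := fun _ => Bool) false
        (fun q => Pat.rec (motive := fun _ => Bool)
          (fun qn qR qZ _ => cond (chkAns qn qR qZ n R' F' m s)
            (ih (Nat.land acc (Nat.lor (Nat.shiftLeft qZ s) (Nat.shiftLeft 1 m)))) false) q)
        (g k)) T

noncomputable def chkPat (g : ℕ → Option Pat) (p : Pat) : Bool :=
  Pat.rec (motive := fun _ => Bool)
    (fun n R Z T => cond (Nat.beq (Nat.lor (Nat.lor R Z) cols) cols)
      (Ans.rec (motive := fun _ => Bool) (isCopyMask R)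
        (fun _ _ _ _ _ => chkList g n (Nat.shiftLeft R 512)
          (Nat.shiftLeft (Nat.lor R Z) 512) T (Nat.shiftLeft (Nat.lor R Z) 512)) T) false) p

end Vale.Agent.Snaky
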