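import Vale.Agent.Snaky.Sound

/-!
# From a checked certificate to the game
-/

namespace Vale.Agent.Snaky

open Set

/-! ## Symmetries fixing the origin -/

def sx : Cell ≃ Cell where
  toFun p := (-p.1, p.2)
  invFun p := (-p.1, p.2)
  left_inv p := by simp
  right_inv p := by simp

def sy : Cell ≃ Cell where
  toFun p := (p.1, -p.2)
  invFun p := (p.1, -p.2)
  left_inv p := by simp
  right_inv p := by simp

def sw : Cell ≃ Cell where
  toFun p := (p.2, p.1)
  invFun p := (p.2, p.1)
  left_inv p := by simp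
  right_inv p := by simp

theorem neg_pm {a : ℤ} (h : a = 1 ∨ a = -1) : -a = 1 ∨ -a = -1 := by
  rcases h with rfl | rfl
  · right; rfl
  · left; norm_num

theorem preserves_sx : Preserves sx := by
  rintro C ⟨t, R, ⟨a, b, ha, hb, hR⟩, rfl⟩
  rcases hR with hR | hR
  · refine ⟨sx t, fun p => (-a * p.1, b * p.2), ⟨-a, b, neg_pm ha, hb, Or.inl fun p => rfl⟩, ?_⟩
    rw [Finset.image_image]
    apply Finset.image_congr
    intro p _
    simp only [Function.comp, hR, sx, Equiv.coe_fn_mk]
    ext
    · simp; ring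
    · simp
  · refine ⟨sx t, fun p => (-a * p.2, b * p.1), ⟨-a, b, neg_pm ha, hb, Or.inr fun p => rfl⟩, ?_⟩
    rw [Finset.image_image]
    apply Finset.image_congr
    intro p _
    simp only [Function.comp, hR, sx, Equiv.coe_fn_mk]
    ext
    · simp; ring
    · simp

theorem preserves_sy : Preserves sy := by
  rintro C ⟨t, R, ⟨a, b, ha, hb, hR⟩, rfl⟩
  rcases hR with hR | hR
  · refine ⟨sy t, fun p => (a * p.1, -b * p.2), ⟨a, -b, ha, neg_pm hb, Or.inl fun p => rfl⟩, ?_⟩
    rw [Finset.image_image]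
    apply Finset.image_congr
    intro p _
    simp only [Function.comp, hR, sy, Equiv.coe_fn_mk]
    ext
    · simp
    · simp; ring
  · refine ⟨sy t, fun p => (a * p.2, -b * p.1), ⟨a, -b, ha, neg_pm hb, Or.inr fun p => rfl⟩, ?_⟩
    rw [Finset.image_image]
    apply Finset.image_congr
    intro p _
    simp only [Function.comp, hR, sy, Equiv.coe_fn_mk]
    ext
    · simp
    · simp; ring

theorem preserves_sw : Preserves sw := by
  rintro C ⟨t, R, ⟨a, b, ha, hb, hR⟩, rfl⟩
  rcases hR with hR | hR
  · refine ⟨sw t, fun p => (b * p.2, a * p.1), ⟨b, a, hb, ha, Or.inr fun p => rfl⟩, ?_⟩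
    rw [Finset.image_image]
    apply Finset.image_congr
    intro p _
    simp only [Function.comp, hR, sw, Equiv.coe_fn_mk]
    ext
    · simp
    · simp
  · refine ⟨sw t, fun p => (b * p.1, a * p.2), ⟨b, a, hb, ha, Or.inl fun p => rfl⟩, ?_⟩
    rw [Finset.image_image]
    apply Finset.image_congr
    intro p _
    simp only [Function.comp, hR, sw, Equiv.coe_fn_mk]
    ext
    · simp
    · simp

/-- Breaker's reply `b` to Maker's first claim `0` loses within `n` further claims of Maker. -/
def Good (n : ℕ) (b : Cell) : Prop :=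
  ∃ m, m ∉ ({(0, 0)} : Finset Cell) ∧ m ∉ ({b} : Finset Cell) ∧
    WB n (insert m {(0, 0)}) {b}

theorem Good.image {n : ℕ} {b : Cell} {e : Cell ≃ Cell} (he : Preserves e) (h0 : e (0, 0) = (0, 0))
    (h : Good n b) : Good n (e b) := by
  obtain ⟨m, h1, h2, h3⟩ := h
  have h4 := h3.image he
  rw [Finset.image_insert, Finset.image_singleton, Finset.image_singleton, h0] at h4
  refine ⟨e m, ?_, ?_, h4⟩
  · rw [Finset.mem_singleton] at h1 ⊢
    intro h
    exact h1 (e.injective (h.trans h0.symm))
  · rw [Finset.mem_singleton] at h2 ⊢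
    intro h
    exact h2 (e.injective h)

/-- It suffices to look at the replies `b` with `0 ≤ b.2 ≤ b.1`. -/
theorem good_of_octant {n : ℕ} {b : Cell}
    (h : Good n (max |b.1| |b.2|, min |b.1| |b.2|)) : Good n b := by
  have hw : ∀ c : Cell, Good n (c.2, c.1) → Good n c := fun c hc =>
    hc.image (e := sw) preserves_sw rfl
  have hx : ∀ c : Cell, Good n (-c.1, c.2) → Good n c := fun c hc => by
    have := hc.image (e := sx) preserves_sx rfl
    simpa [sx] using this
  have hy : ∀ c : Cell, Good n (c.1, -c.2) → Good n c := fun c hc => by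
    have := hc.image (e := sy) preserves_sy rfl
    simpa [sy] using this
  have h1 : Good n (|b.1|, |b.2|) := by
    rcases le_total |b.1| |b.2| with h' | h'
    · rw [max_eq_right h', min_eq_left h'] at h
      exact hw _ h
    · rw [max_eq_left h', min_eq_right h'] at h
      exact h
  have h2 : Good n (b.1, |b.2|) := by
    rcases abs_choice b.1 with h' | h'
    · rw [h'] at h1; exact h1
    · rw [h'] at h1; exact hx (b.1, |b.2|) h1
  rcases abs_choice b.2 with h' | h'
  · rw [h'] at h2; exact h2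
  · rw [h'] at h2; exact hy b h2

/-! ## The root of the certificate -/

/-- index of the cell of Maker's first claim, `(15, 7)` -/
def oIdx : ℕ := 239

/-- mask of the replies `(15 + x, 7 + y)` with `0 ≤ y ≤ x ≤ 16`, `(x, y) ≠ (0, 0)`, which are in the
list `ex` or not -/
def octMask (ex : List (ℕ × ℕ)) : ℕ :=
  ((List.range 17).flatMap fun x => (List.range (x + 1)).map fun y => (x, y)).foldl
    (fun acc p => if p = (0, 0) ∨ p ∈ ex then acc else acc ||| (1 <<< (239 + p.1 + 32 * p.2))) 0

/-- all bits of the frame -/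
def fullMask : ℕ := 2 ^ 1024 - 1

theorem root_reply {t : Tr} (ht : t.all (chkPat t.get) = true) {n : ℕ} {T : Ans} {oct : ℕ}
    (hT : chkList t.get (n + 1) (Nat.shiftLeft (1 <<< oIdx) 512) (Nat.shiftLeft fullMask 512) T
      (Nat.shiftLeft oct 512) = true) (hne : T ≠ Ans.nil) {b : Cell} (hb : b ≠ (15, 7))
    (ho : 0 ≤ b.1 → b.1 < 32 → tb oct (b.1 + 32 * b.2)) :
    ∃ m, m ∉ ({(15, 7)} : Finset Cell) ∧ m ∉ ({b} : Finset Cell) ∧
      WB n (insert m {(15, 7)}) {b} := by
  have hdec : decode (1 <<< oIdx) = {((15, 7) : Cell)} := by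
    ext p
    have h1 : tb (1 <<< oIdx) (p.1 + 32 * p.2) ↔ p.1 + 32 * p.2 = ((239 : ℕ) : ℤ) :=
      tb_one_shiftLeft
    rw [mem_decode_iff, h1, Set.mem_singleton_iff]
    constructor
    · rintro ⟨h1, h2, h3⟩
      push_cast at h3
      exact Prod.ext (by show p.1 = 15; omega) (by show p.2 = 7; omega)
    · rintro rfl
      norm_num
  have main : ∀ m k s qn qR qZ qT, t.get k = some (Pat.mk qn qR qZ qT) →
      chkAns qn qR qZ (n + 1) (Nat.shiftLeft (1 <<< oIdx) 512) (Nat.shiftLeft fullMask 512) m s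
        = true →
      ¬ (0 ≤ b.1 ∧ b.1 < 32 ∧ tb (bad qZ m s) (b.1 + 32 * b.2 + 512)) →
      ∃ m, m ∉ ({(15, 7)} : Finset Cell) ∧ m ∉ ({b} : Finset Cell) ∧
        WB n (insert m {(15, 7)}) {b} := by
    intro m k s qn qR qZ qT h1 h2 h3
    obtain ⟨hpR, hpZ, -, -⟩ := chkPat_spec (Tr.all_get ht h1)
    have hw := sound ht (qn + 1) k qn qR qZ qT (Nat.lt_succ_self _) h1
    obtain ⟨g0, R', Z', g1, g2, g3, g4, g5⟩ := chkAns_spec h2 hpR hpZ hw
    obtain ⟨g6, g7⟩ := g5 b h3
    rw [hdec] at g2
    have hZb : Disjoint Z' (({b} : Finset Cell) : Set Cell) := by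
      rw [Finset.coe_singleton, Set.disjoint_singleton_right]
      exact g7
    have hgen : ∀ x, x ∉ ({(15, 7)} : Finset Cell) → x ∉ ({b} : Finset Cell) →
        R' ⊆ ((insert x {(15, 7)} : Finset Cell) : Set Cell) →
        WB n (insert x {(15, 7)}) {b} := by
      intro x hx1 hx2 hx3
      refine (g4.mono (Nat.lt_succ_iff.1 g0)) _ _ ?_ hx3 hZb
      rw [Finset.disjoint_singleton_right, Finset.mem_insert, Finset.mem_singleton]
      rintro (h | h)
      · exact hx2 (by rw [Finset.mem_singleton]; exact h.symm)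
      · exact hb h
    by_cases hm : mcell m = (15, 7)
    · obtain ⟨x, hx⟩ := exists_fresh ({(15, 7)} ∪ {b})
      rw [Finset.notMem_union] at hx
      refine ⟨x, hx.1, hx.2, hgen x hx.1 hx.2 ?_⟩
      intro y hy
      rw [Finset.coe_insert, Finset.coe_singleton]
      right
      rcases g2 hy with h | h
      · rw [h, hm]; rfl
      · exact h
    · have h5 : mcell m ∉ ({(15, 7)} : Finset Cell) := by
        rw [Finset.mem_singleton]; exact hm
      have h6 : mcell m ∉ ({b} : Finset Cell) := by
        rw [Finset.mem_singleton]; exact g6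
      refine ⟨mcell m, h5, h6, hgen _ h5 h6 ?_⟩
      rw [Finset.coe_insert, Finset.coe_singleton]
      exact g2
  by_cases hb2 : 0 ≤ b.1 ∧ b.1 < 32
  · have h1 : tb (Nat.shiftLeft oct 512) (b.1 + 32 * b.2 + 512) := by
      rw [tb_shiftLeft]
      have e : b.1 + 32 * b.2 + 512 - ((512 : ℕ) : ℤ) = b.1 + 32 * b.2 := by push_cast; ring
      rw [e]
      exact ho hb2.1 hb2.2
    have h2 : ¬ tb (Nat.shiftLeft (1 <<< oIdx) 512) (b.1 + 32 * b.2 + 512) := by
      rw [tb_shiftLeft]
      have e : b.1 + 32 * b.2 + 512 - ((512 : ℕ) : ℤ) = b.1 + 32 * b.2 := by push_cast; ring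
      rw [e]
      intro h
      have : b ∈ decode (1 <<< oIdx) := ⟨hb2.1, hb2.2, h⟩
      rw [hdec] at this
      exact hb this
    obtain ⟨m, k, s, qn, qR, qZ, qT, g1, g2, g3⟩ := chkList_spec hT _ h2 h1
    exact main m k s qn qR qZ qT g1 g2 (fun h => g3 h.2.2)
  · cases T with
    | nil => exact absurd rfl hne
    | cons m k s T =>
        obtain ⟨qn, qR, qZ, qT, g1, g2, -⟩ := chkList_cons hT
        exact main m k s qn qR qZ qT g1 g2 (fun h => hb2 ⟨h.1, h.2.1⟩)

theorem good_of_root {t : Tr} (ht : t.all (chkPat t.get) = true) {n : ℕ} {T : Ans} {oct : ℕ}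
    (hT : chkList t.get (n + 1) (Nat.shiftLeft (1 <<< oIdx) 512) (Nat.shiftLeft fullMask 512) T
      (Nat.shiftLeft oct 512) = true) (hne : T ≠ Ans.nil) {b : Cell} (hb : b ≠ (0, 0))
    (ho : b.1 < 17 → -15 ≤ b.1 → tb oct (239 + b.1 + 32 * b.2)) : Good n b := by
  have hb' : Equiv.addLeft ((15, 7) : Cell) b ≠ (15, 7) := by
    intro h
    apply hb
    have h1 : 15 + b.1 = 15 := congrArg Prod.fst h
    have h2 : 7 + b.2 = 7 := congrArg Prod.snd h
    exact Prod.ext (by show b.1 = 0; omega) (by show b.2 = 0; omega)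
  obtain ⟨m, h1, h2, h3⟩ := root_reply ht hT hne hb' (by
    intro h1 h2
    have e1 : (Equiv.addLeft ((15, 7) : Cell) b).1 = 15 + b.1 := rfl
    have e2 : (Equiv.addLeft ((15, 7) : Cell) b).2 = 7 + b.2 := rfl
    rw [e1] at h1 h2
    rw [e1, e2]
    have := ho (by omega) (by omega)
    have e3 : 15 + b.1 + 32 * (7 + b.2) = 239 + b.1 + 32 * b.2 := by ring
    rw [e3]
    exact this)
  have h4 := h3.image (preserves_add ((-15, -7) : Cell))
  rw [Finset.image_insert, Finset.image_singleton, Finset.image_singleton] at h4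
  have e1 : Equiv.addLeft ((-15, -7) : Cell) (15, 7) = (0, 0) := by
    show ((-15, -7) : Cell) + (15, 7) = (0, 0)
    rfl
  have e2 : Equiv.addLeft ((-15, -7) : Cell) (Equiv.addLeft ((15, 7) : Cell) b) = b := by
    show ((-15, -7) : Cell) + ((15, 7) + b) = b
    rw [← add_assoc]
    have : ((-15, -7) : Cell) + (15, 7) = 0 := rfl
    rw [this, zero_add]
  rw [e1, e2] at h4
  refine ⟨Equiv.addLeft ((-15, -7) : Cell) m, ?_, ?_, h4⟩
  · rw [Finset.mem_singleton] at h1 ⊢
    intro h
    exact h1 ((Equiv.addLeft ((-15, -7) : Cell)).injective (h.trans e1.symm))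
  · rw [Finset.mem_singleton] at h2 ⊢
    intro h
    exact h2 ((Equiv.addLeft ((-15, -7) : Cell)).injective (h.trans e2.symm))

/-! ## Strategies from good replies -/

theorem wins_of_reply {n : ℕ} {o : Cell} {b : ℕ → Cell}
    (hb : BreakerLegal (strat (n + 1) o) b (n + 1))
    (h : ∃ m, m ∉ ({o} : Finset Cell) ∧ m ∉ ({b 0} : Finset Cell) ∧ WB n (insert m {o}) {b 0}) :
    MakerLegal (strat (n + 1) o) b (n + 1) ∧ OwnsCopy (makerCells (strat (n + 1) o) b (n + 2)) := by
  have hmc1 : makerCells (strat (n + 1) o) b 1 = {o} := by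
    simp [makerCells, makerMove, strat, st]
  have hbc1 : breakerCells b 1 = {b 0} := by
    simp [breakerCells]
  have key : ∀ k, k ≤ n →
      WB (n - k) (makerCells (strat (n + 1) o) b (k + 2)) (breakerCells b (k + 1)) ∧
      makerMove (strat (n + 1) o) b (k + 1) ∉ makerCells (strat (n + 1) o) b (k + 1) ∧
      makerMove (strat (n + 1) o) b (k + 1) ∉ breakerCells b (k + 1) := by
    intro k
    induction k with
    | zero =>
        intro _
        rw [← hmc1, ← hbc1] at h
        have hs := reply_spec h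
        have e := makerMove_strat_succ (n + 1) o b 0
        have e2 : n + 1 - 0 - 1 = n := by omega
        rw [e2, Nat.zero_add] at e
        rw [← e] at hs
        refine ⟨?_, hs.1, hs.2.1⟩
        rw [makerCells_succ]
        exact hs.2.2
    | succ k ih =>
        intro hk
        obtain ⟨hw, -, -⟩ := ih (by omega)
        obtain ⟨hbM, hbB⟩ := hb (k + 1) (by omega)
        have hnk : n - k = (n - (k + 1)) + 1 := by omega
        rw [hnk] at hw
        have hex := exists_next hw hbM hbB
        rw [← breakerCells_succ] at hex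
        have hs := reply_spec hex
        have e := makerMove_strat_succ (n + 1) o b (k + 1)
        have e2 : n + 1 - (k + 1) - 1 = n - (k + 1) := by omega
        rw [e2] at e
        rw [← e] at hs
        refine ⟨?_, hs.1, hs.2.1⟩
        rw [makerCells_succ]
        exact hs.2.2
  constructor
  · intro k hk
    cases k with
    | zero => simp [makerCells, breakerCells]
    | succ k => exact (key k (by omega)).2
  · have h := (key n le_rfl).1
    rw [Nat.sub_self] at h
    exact h

theorem makerMove_strat_zero (n : ℕ) (o : Cell) (b : ℕ → Cell) :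
    makerMove (strat n o) b 0 = o := by
  simp [makerMove, strat, st]

end Vale.Agent.Snaky
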