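import Mathlib

/-!
# The Snaky achievement game on the square grid: definitions

Cells are points of `ℤ × ℤ`.  `snaky` is the hexomino of the problem, an allowed copy is the image of
`snaky` under a signed coordinate permutation followed by a translation.  A strategy of Maker is a
function that looks at the list of the claims of Breaker so far (oldest first) and returns the next
claim of Maker; Maker moves first.
-/

namespace Vale.Agent.Snaky

/-- Cells of the board. -/
abbrev Cell := ℤ × ℤ

/-- The hexomino Snaky. -/
def snaky : Finset Cell := {(0, 0), (1, 0), (2, 0), (3, 0), (3, 1), (4, 1)}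

/-- The eight linear maps given by the `2 × 2` signed permutation matrices. -/
def IsSignedPerm (R : Cell → Cell) : Prop :=
  ∃ ε δ : ℤ, (ε = 1 ∨ ε = -1) ∧ (δ = 1 ∨ δ = -1) ∧
    ((∀ p, R p = (ε * p.1, δ * p.2)) ∨ (∀ p, R p = (ε * p.2, δ * p.1)))

/-- Allowed copies of Snaky: `t + R(S)`. -/
def IsCopy (C : Finset Cell) : Prop :=
  ∃ (t : Cell) (R : Cell → Cell), IsSignedPerm R ∧ C = snaky.image (fun p => t + R p)

/-- A player owning the cells `M` owns an allowed copy of Snaky. -/
def OwnsCopy (M : Finset Cell) : Prop := ∃ C, IsCopy C ∧ C ⊆ M

/-- A strategy of Maker: given Breaker's claims so far (oldest first), the next claim of Maker. -/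
abbrev Strategy := List Cell → Cell

/-- The cell that Maker claims on her `(k+1)`-st turn when she follows `σ` and Breaker's claims are
`b 0, b 1, …`; she has then seen `b 0, …, b (k-1)`. -/
def makerMove (σ : Strategy) (b : ℕ → Cell) (k : ℕ) : Cell := σ ((List.range k).map b)

/-- Maker's cells after her first `k` turns. -/
def makerCells (σ : Strategy) (b : ℕ → Cell) (k : ℕ) : Finset Cell :=
  (Finset.range k).image (makerMove σ b)

/-- Breaker's cells after his first `k` turns. -/
def breakerCells (b : ℕ → Cell) (k : ℕ) : Finset Cell := (Finset.range k).image b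

/-- Breaker's first `n` claims `b 0, …, b (n-1)` are legal against `σ`: each is a cell that nobody has
claimed before (Breaker's claim `b k` comes after Maker's `(k+1)`-st claim). -/
def BreakerLegal (σ : Strategy) (b : ℕ → Cell) (n : ℕ) : Prop :=
  ∀ k < n, b k ∉ makerCells σ b (k + 1) ∧ b k ∉ breakerCells b k

/-- Maker's first `n + 1` claims are legal when she follows `σ` and Breaker plays `b`. -/
def MakerLegal (σ : Strategy) (b : ℕ → Cell) (n : ℕ) : Prop :=
  ∀ k ≤ n, makerMove σ b k ∉ makerCells σ b k ∧ makerMove σ b k ∉ breakerCells b k

/-- `σ` wins within `n + 1` claims of Maker: whatever legal claims Breaker makes, all claims of `σ` are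
legal and Maker owns an allowed copy of Snaky after at most `n + 1` claims. -/
def WinsWithin (σ : Strategy) (n : ℕ) : Prop :=
  ∀ b : ℕ → Cell, BreakerLegal σ b n → MakerLegal σ b n ∧ OwnsCopy (makerCells σ b (n + 1))

end Vale.Agent.Snaky
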