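import Vale.Agent.Snaky.Defs

/-!
# From positions to strategies

`WB n M B`: Breaker is to move, Maker owns `M`, Breaker owns `B`, and Maker can own a copy of Snaky
after at most `n` further claims.
-/

namespace Vale.Agent.Snaky

open Finset

def WB : ℕ → Finset Cell → Finset Cell → Prop
  | 0, M, _ => OwnsCopy M
  | n + 1, M, B => OwnsCopy M ∨ ∀ b, b ∉ M → b ∉ B →
      ∃ m, m ∉ M ∧ m ∉ insert b B ∧ WB n (insert m M) (insert b B)

theorem OwnsCopy.mono {M N : Finset Cell} (h : OwnsCopy M) (hs : M ⊆ N) : OwnsCopy N := by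
  obtain ⟨C, hC, hCM⟩ := h
  exact ⟨C, hC, hCM.trans hs⟩

theorem WB.of_owns {M : Finset Cell} (h : OwnsCopy M) : ∀ (n : ℕ) (B : Finset Cell), WB n M B
  | 0, _ => h
  | _ + 1, _ => Or.inl h

theorem WB.succ : ∀ {n : ℕ} {M B : Finset Cell}, WB n M B → WB (n + 1) M B
  | 0, _, _, h => Or.inl h
  | n + 1, M, B, h => by
      rcases h with h | h
      · exact Or.inl h
      · right
        intro b hb hb'
        obtain ⟨m, h1, h2, h3⟩ := h b hb hb'
        exact ⟨m, h1, h2, h3.succ⟩

theorem WB.mono {n n' : ℕ} (hn : n ≤ n') {M B : Finset Cell} (h : WB n M B) : WB n' M B := by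
  induction hn with
  | refl => exact h
  | step _ ih => exact ih.succ

theorem exists_fresh (S : Finset Cell) : ∃ x : Cell, x ∉ S := Infinite.exists_notMem_finset S

/-! ## Strategy extraction -/

open Classical in
noncomputable def reply (n : ℕ) (M B : Finset Cell) : Cell :=
  if h : ∃ m, m ∉ M ∧ m ∉ B ∧ WB n (insert m M) B then h.choose else (exists_fresh (M ∪ B)).choose

theorem reply_spec {n : ℕ} {M B : Finset Cell} (h : ∃ m, m ∉ M ∧ m ∉ B ∧ WB n (insert m M) B) :
    reply n M B ∉ M ∧ reply n M B ∉ B ∧ WB n (insert (reply n M B) M) B := by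
  unfold reply
  rw [dif_pos h]
  exact h.choose_spec

structure St where
  n : ℕ
  M : Finset Cell
  B : Finset Cell
  last : Cell

noncomputable def St.step (s : St) (b : Cell) : St :=
  ⟨s.n - 1, insert (reply (s.n - 1) s.M (insert b s.B)) s.M, insert b s.B,
    reply (s.n - 1) s.M (insert b s.B)⟩

noncomputable def st (n : ℕ) (o : Cell) (l : List Cell) : St :=
  l.foldl St.step ⟨n, {o}, ∅, o⟩

noncomputable def strat (n : ℕ) (o : Cell) : Strategy := fun l => (st n o l).last

theorem st_append (n : ℕ) (o : Cell) (l : List Cell) (b : Cell) :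
    st n o (l ++ [b]) = (st n o l).step b := by
  simp [st, List.foldl_append]

theorem makerCells_succ (σ : Strategy) (b : ℕ → Cell) (k : ℕ) :
    makerCells σ b (k + 1) = insert (makerMove σ b k) (makerCells σ b k) := by
  simp [makerCells, Finset.range_add_one, Finset.image_insert]

theorem breakerCells_succ (b : ℕ → Cell) (k : ℕ) :
    breakerCells b (k + 1) = insert (b k) (breakerCells b k) := by
  simp [breakerCells, Finset.range_add_one, Finset.image_insert]

theorem st_range_succ (n : ℕ) (o : Cell) (b : ℕ → Cell) (k : ℕ) :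
    st n o ((List.range (k + 1)).map b) = (st n o ((List.range k).map b)).step (b k) := by
  rw [List.range_succ, List.map_append, List.map_singleton, st_append]

theorem st_inv (n : ℕ) (o : Cell) (b : ℕ → Cell) (k : ℕ) :
    (st n o ((List.range k).map b)).M = makerCells (strat n o) b (k + 1) ∧
    (st n o ((List.range k).map b)).B = breakerCells b k ∧
    (st n o ((List.range k).map b)).n = n - k := by
  induction k with
  | zero =>
      refine ⟨?_, ?_, ?_⟩
      · simp [makerCells, makerMove, strat, st]
      · simp [breakerCells, st]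
      · simp [st]
  | succ k ih =>
      obtain ⟨h1, h2, h3⟩ := ih
      refine ⟨?_, ?_, ?_⟩
      · rw [makerCells_succ, ← h1, makerMove]
        unfold strat
        rw [st_range_succ]
        rfl
      · rw [breakerCells_succ, ← h2, st_range_succ]
        rfl
      · rw [st_range_succ]
        show (st n o ((List.range k).map b)).n - 1 = n - (k + 1)
        rw [h3]
        omega

theorem makerMove_strat_succ (n : ℕ) (o : Cell) (b : ℕ → Cell) (k : ℕ) :
    makerMove (strat n o) b (k + 1) =
      reply (n - k - 1) (makerCells (strat n o) b (k + 1)) (breakerCells b (k + 1)) := by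
  obtain ⟨h1, h2, h3⟩ := st_inv n o b k
  unfold makerMove
  conv_lhs => unfold strat
  rw [st_range_succ]
  show reply ((st n o ((List.range k).map b)).n - 1) (st n o ((List.range k).map b)).M
    (insert (b k) (st n o ((List.range k).map b)).B) = _
  rw [h1, h2, h3, breakerCells_succ]

theorem exists_next {n : ℕ} {M B : Finset Cell} {b : Cell} (h : WB (n + 1) M B) (hM : b ∉ M)
    (hB : b ∉ B) : ∃ m, m ∉ M ∧ m ∉ insert b B ∧ WB n (insert m M) (insert b B) := by
  rcases h with h | h
  · obtain ⟨x, hx⟩ := exists_fresh (M ∪ insert b B)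
    rw [Finset.notMem_union] at hx
    exact ⟨x, hx.1, hx.2, WB.of_owns (h.mono (Finset.subset_insert _ _)) _ _⟩
  · exact h b hM hB

theorem wins_of_WB {n : ℕ} {o : Cell} (h : WB n {o} ∅) : WinsWithin (strat n o) n := by
  intro b hb
  have key : ∀ k ≤ n, WB (n - k) (makerCells (strat n o) b (k + 1)) (breakerCells b k) ∧
      makerMove (strat n o) b k ∉ makerCells (strat n o) b k ∧
      makerMove (strat n o) b k ∉ breakerCells b k := by
    intro k
    induction k with
    | zero =>
        intro _
        refine ⟨?_, ?_, ?_⟩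
        · have h1 := (st_inv n o b 0).1
          have h2 := (st_inv n o b 0).2.1
          rw [← h1, ← h2]
          simpa [st] using h
        · simp [makerCells]
        · simp [breakerCells]
    | succ k ih =>
        intro hk
        obtain ⟨hw, -, -⟩ := ih (by omega)
        obtain ⟨hbM, hbB⟩ := hb k (by omega)
        have hnk : n - k = (n - k - 1) + 1 := by omega
        rw [hnk] at hw
        have hex := exists_next hw hbM hbB
        have hs := reply_spec hex
        rw [← breakerCells_succ] at hs
        rw [← makerMove_strat_succ] at hs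
        refine ⟨?_, hs.1, hs.2.1⟩
        rw [makerCells_succ]
        have : n - (k + 1) = n - k - 1 := by omega
        rw [this]
        exact hs.2.2
  refine ⟨fun k hk => (key k hk).2, ?_⟩
  have h := (key n le_rfl).1
  rw [Nat.sub_self] at h
  exact h

/-! ## Patterns -/

/-- `Win n R Z`: Maker wins within `n` further claims from every position, Breaker to move, in which
Maker owns all cells of `R` and Breaker owns no cell of `Z`. -/
def Win (n : ℕ) (R Z : Set Cell) : Prop :=
  ∀ M B : Finset Cell, Disjoint M B → R ⊆ (M : Set Cell) → Disjoint Z (B : Set Cell) → WB n M B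

theorem Win.mono {n n' : ℕ} (hn : n ≤ n') {R Z : Set Cell} (h : Win n R Z) : Win n' R Z :=
  fun M B h1 h2 h3 => (h M B h1 h2 h3).mono hn

theorem win_of_copy {C : Finset Cell} (hC : IsCopy C) : Win 0 (C : Set Cell) ∅ := by
  intro M B _ hR _
  exact ⟨C, hC, by exact_mod_cast hR⟩

theorem win_step {n : ℕ} {R Z : Set Cell}
    (h : ∀ b, b ∉ R → ∃ m R' Z', m ≠ b ∧ b ∉ Z' ∧ m ∈ R ∪ Z ∧ R' ⊆ insert m R ∧ Z' ⊆ R ∪ Z ∧
      Win n R' Z') : Win (n + 1) R Z := by
  intro M B hd hR hZ
  right
  intro b hbM hbB
  have hbR : b ∉ R := fun hb => hbM (by exact_mod_cast hR hb)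
  obtain ⟨m, R', Z', hmb, hbZ', hm, hR', hZ', hw⟩ := h b hbR
  have hRZ : Disjoint (R ∪ Z) (B : Set Cell) := by
    rw [Set.disjoint_union_left]
    refine ⟨?_, hZ⟩
    have h1 : Disjoint (M : Set Cell) (B : Set Cell) := by exact_mod_cast hd
    exact h1.mono_left hR
  have hZB : Disjoint Z' ((insert b B : Finset Cell) : Set Cell) := by
    rw [Finset.coe_insert, Set.disjoint_insert_right]
    exact ⟨hbZ', hRZ.mono_left hZ'⟩
  have hmB : m ∉ B := fun hmB => Set.disjoint_left.1 hRZ hm (by exact_mod_cast hmB)
  have hgen : ∀ x, x ∉ M → x ∉ insert b B → (R' ⊆ ((insert x M : Finset Cell) : Set Cell)) →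
      WB n (insert x M) (insert b B) := by
    intro x hxM hxB hsub
    apply hw _ _ _ hsub hZB
    rw [Finset.disjoint_insert_left]
    refine ⟨hxB, ?_⟩
    rw [Finset.disjoint_insert_right]
    exact ⟨hbM, hd⟩
  by_cases hmM : m ∈ M
  · obtain ⟨x, hx⟩ := exists_fresh (M ∪ insert b B)
    rw [Finset.notMem_union] at hx
    refine ⟨x, hx.1, hx.2, hgen x hx.1 hx.2 ?_⟩
    intro y hy
    rw [Finset.coe_insert]
    right
    rcases hR' hy with rfl | hy
    · exact_mod_cast hmM
    · exact hR hy
  · have hmi : m ∉ insert b B := by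
      rw [Finset.mem_insert]
      rintro (h | h)
      · exact hmb h
      · exact hmB h
    refine ⟨m, hmM, hmi, hgen m hmM hmi ?_⟩
    rw [Finset.coe_insert]
    exact hR'.trans (Set.insert_subset_insert hR)

/-! ## Symmetries -/

/-- `e` maps allowed copies to allowed copies. -/
def Preserves (e : Cell ≃ Cell) : Prop := ∀ C, IsCopy C → IsCopy (C.image e)

theorem OwnsCopy.image {e : Cell ≃ Cell} (he : Preserves e) {M : Finset Cell} (h : OwnsCopy M) :
    OwnsCopy (M.image e) := by
  obtain ⟨C, hC, hCM⟩ := h
  exact ⟨C.image e, he C hC, Finset.image_subset_image hCM⟩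

theorem WB.image {e : Cell ≃ Cell} (he : Preserves e) :
    ∀ {n : ℕ} {M B : Finset Cell}, WB n M B → WB n (M.image e) (B.image e)
  | 0, _, _, h => OwnsCopy.image he h
  | n + 1, M, B, h => by
      rcases h with h | h
      · exact Or.inl (h.image he)
      · right
        intro b hbM hbB
        have h1 : e.symm b ∉ M := fun hb => hbM (Finset.mem_image.2 ⟨_, hb, by simp⟩)
        have h2 : e.symm b ∉ B := fun hb => hbB (Finset.mem_image.2 ⟨_, hb, by simp⟩)
        obtain ⟨m, hm1, hm2, hw⟩ := h _ h1 h2
        have hw' := hw.image he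
        rw [Finset.image_insert, Finset.image_insert, Equiv.apply_symm_apply] at hw'
        refine ⟨e m, ?_, ?_, hw'⟩
        · intro hm
          obtain ⟨x, hx, hxe⟩ := Finset.mem_image.1 hm
          exact hm1 (e.injective hxe ▸ hx)
        · intro hm
          rw [Finset.mem_insert] at hm hm2
          rcases hm with hm | hm
          · exact hm2 (Or.inl (by rw [← hm]; simp))
          · obtain ⟨x, hx, hxe⟩ := Finset.mem_image.1 hm
            exact hm2 (Or.inr (e.injective hxe ▸ hx))

theorem Win.image {e : Cell ≃ Cell} (he : Preserves e) {n : ℕ} {R Z : Set Cell} (h : Win n R Z) :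
    Win n (e '' R) (e '' Z) := by
  intro M B hd hR hZ
  have h1 := h (M.image e.symm) (B.image e.symm)
    ((Finset.disjoint_image e.symm.injective).2 hd)
    (by
      intro x hx
      rw [Finset.coe_image]
      exact ⟨e x, hR ⟨x, hx, rfl⟩, by simp⟩)
    (by
      rw [Finset.coe_image, Set.disjoint_left]
      rintro x hx ⟨y, hy, rfl⟩
      exact Set.disjoint_left.1 hZ ⟨_, hx, by simp⟩ hy)
  have h2 := h1.image he
  rw [Finset.image_image, Finset.image_image] at h2
  simpa using h2

theorem preserves_add (t : Cell) : Preserves (Equiv.addLeft t) := by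
  rintro C ⟨t', R, hR, rfl⟩
  refine ⟨t + t', R, hR, ?_⟩
  rw [Finset.image_image]
  apply Finset.image_congr
  intro p _
  simp [add_assoc]

end Vale.Agent.Snaky
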