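import Vale.Agent.Snaky.Line

/-!
# Checked levels of a forced line
-/

namespace Vale.Agent.Snaky

open Set

theorem WL.image' {X Y : List Cell → Prop} {e : Cell ≃ Cell} (he : Preserves e)
    (hX : ∀ l, X l → Y (l.map e)) :
    ∀ {n : ℕ} {M : Finset Cell} {l : List Cell}, WL X n M l → WL Y n (M.image e) (l.map e)
  | 0, _, _, h => h.imp (OwnsCopy.image he) (hX _)
  | n + 1, M, l, h => by
      rcases h with h | h | h
      · exact Or.inl (h.image he)
      · exact Or.inr (Or.inl (hX _ h))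
      · right; right
        intro b hbM hbl
        have h1 : e.symm b ∉ M := fun hb => hbM (Finset.mem_image.2 ⟨_, hb, by simp⟩)
        have h2 : e.symm b ∉ l := fun hb => hbl (List.mem_map.2 ⟨_, hb, by simp⟩)
        obtain ⟨m, hm1, hm2, hm3, hw⟩ := h _ h1 h2
        have hw' := hw.image' he hX
        rw [Finset.image_insert, List.map_append, List.map_singleton, Equiv.apply_symm_apply] at hw'
        refine ⟨e m, ?_, ?_, ?_, hw'⟩
        · intro hm
          obtain ⟨x, hx, hxe⟩ := Finset.mem_image.1 hm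
          exact hm1 (e.injective hxe ▸ hx)
        · intro hm
          obtain ⟨x, hx, hxe⟩ := List.mem_map.1 hm
          exact hm2 (e.injective hxe ▸ hx)
        · intro hm
          apply hm3
          rw [← hm]
          simp

/-- index of a cell of the frame -/
def cIdx (c : Cell) : ℕ := (c.1 + 32 * c.2).toNat

/-- mask of a list of cells -/
def maskOf (l : List Cell) : ℕ := l.foldr (fun c m => Nat.lor m (Nat.shiftLeft 1 (cIdx c))) 0

/-- the cells of the frame outside a list -/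
def freeOf (l : List Cell) : ℕ := Nat.xor fullMask (maskOf l)

def okCells (l : List Cell) : Bool :=
  l.all fun c => decide (0 ≤ c.1 ∧ c.1 < 32 ∧ 0 ≤ c.2 ∧ c.2 < 16)

theorem okCells_spec {l : List Cell} (h : okCells l = true) :
    ∀ c ∈ l, 0 ≤ c.1 ∧ c.1 < 32 ∧ 0 ≤ c.2 ∧ c.2 < 16 := by
  intro c hc
  have := List.all_eq_true.1 h c hc
  exact of_decide_eq_true this

theorem tb_maskOf {l : List Cell} (hl : ∀ c ∈ l, 0 ≤ c.1 ∧ c.1 < 32 ∧ 0 ≤ c.2 ∧ c.2 < 16) {x : Cell}
    (h0 : 0 ≤ x.1) (h1 : x.1 < 32) : tb (maskOf l) (x.1 + 32 * x.2) ↔ x ∈ l := by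
  induction l with
  | nil =>
      have : ¬ tb (maskOf []) (x.1 + 32 * x.2) := tb_zero
      simp [this]
  | cons c l ih =>
      have e : maskOf (c :: l) = Nat.lor (maskOf l) (Nat.shiftLeft 1 (cIdx c)) := rfl
      rw [e, tb_or, tb_one_shiftLeft, ih (fun c hc => hl c (List.mem_cons_of_mem _ hc)),
        List.mem_cons]
      obtain ⟨g1, g2, g3, g4⟩ := hl c List.mem_cons_self
      have hi : ((cIdx c : ℕ) : ℤ) = c.1 + 32 * c.2 := by
        unfold cIdx
        rw [Int.toNat_of_nonneg (by omega)]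
      rw [hi]
      constructor
      · rintro (h | h)
        · exact Or.inr h
        · left
          exact Prod.ext (by omega) (by omega)
      · rintro (h | h)
        · right; rw [h]
        · exact Or.inl h

theorem tb_freeOf {l : List Cell} (hl : ∀ c ∈ l, 0 ≤ c.1 ∧ c.1 < 32 ∧ 0 ≤ c.2 ∧ c.2 < 16) {x : Cell}
    (h0 : 0 ≤ x.1) (h1 : x.1 < 32) : tb (freeOf l) (x.1 + 32 * x.2) ↔
      (0 ≤ x.1 + 32 * x.2 ∧ x.1 + 32 * x.2 < 1024 ∧ x ∉ l) := by
  have hm := tb_maskOf hl h0 h1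
  unfold freeOf
  show tb (fullMask ^^^ maskOf l) (x.1 + 32 * x.2) ↔ _
  unfold tb at hm ⊢
  rw [Nat.testBit_xor]
  have hf : fullMask.testBit (x.1 + 32 * x.2).toNat = decide ((x.1 + 32 * x.2).toNat < 1024) := by
    rw [fullMask, Nat.testBit_two_pow_sub_one]
  rw [hf]
  constructor
  · rintro ⟨g1, g2⟩
    refine ⟨g1, ?_, ?_⟩
    · by_contra hge
      have h3 : ¬ (x.1 + 32 * x.2).toNat < 1024 := by omega
      have h4 : x ∉ l := by
        intro hx
        obtain ⟨a1, a2, a3, a4⟩ := hl x hx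
        omega
      rw [decide_eq_false h3, Bool.false_xor] at g2
      exact h4 (hm.1 ⟨g1, g2⟩)
    · intro hx
      have h3 := (hm.2 hx).2
      obtain ⟨a1, a2, a3, a4⟩ := hl x hx
      have h4 : (x.1 + 32 * x.2).toNat < 1024 := by omega
      rw [h3, decide_eq_true h4] at g2
      exact Bool.noConfusion g2
  · rintro ⟨g1, g2, g3⟩
    refine ⟨g1, ?_⟩
    have h4 : (x.1 + 32 * x.2).toNat < 1024 := by omega
    have h5 : (maskOf l).testBit (x.1 + 32 * x.2).toNat = false := by
      by_contra hne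
      exact g3 (hm.1 ⟨g1, by simpa using hne⟩)
    rw [h5, decide_eq_true h4]
    rfl

def Ans.isNil : Ans → Bool
  | .nil => true
  | .cons _ _ _ _ => false

/-- the check of one level of the line: every reply except the cell `e` has an answer -/
noncomputable def chkLevel (t : Tr) (n : ℕ) (T : Ans) (Lm l : List Cell) (e : Cell) : Bool :=
  (okCells Lm && okCells (e :: l)) && ((!T.isNil && l.all fun x => decide (x ∉ Lm)) &&
    chkList t.get (n + 1) (Nat.shiftLeft (maskOf Lm) 512) (Nat.shiftLeft (freeOf l) 512) T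
      (Nat.shiftLeft (freeOf (e :: l)) 512))

theorem WL.level {X : List Cell → Prop} {t : Tr} (ht : t.all (chkPat t.get) = true) {n : ℕ} {T : Ans}
    {Lm l : List Cell} {e : Cell} (h : chkLevel t n T Lm l e = true) (m' : Cell)
    (hm : m' ∉ Lm ∧ m' ∉ l ∧ m' ≠ e) (hnext : WL X n (m' :: Lm).toFinset (l ++ [e])) :
    WL X (n + 1) Lm.toFinset l := by
  unfold chkLevel at h
  rw [Bool.and_eq_true, Bool.and_eq_true, Bool.and_eq_true, Bool.and_eq_true] at h
  obtain ⟨⟨h1, h2⟩, ⟨h3, h4⟩, h5⟩ := h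
  have hLm := okCells_spec h1
  have hel := okCells_spec h2
  have hl : ∀ c ∈ l, 0 ≤ c.1 ∧ c.1 < 32 ∧ 0 ≤ c.2 ∧ c.2 < 16 :=
    fun c hc => hel c (List.mem_cons_of_mem _ hc)
  have hne : T ≠ Ans.nil := by
    rintro rfl
    simp [Ans.isNil] at h3
  have hdis : ∀ x ∈ l, x ∉ Lm := fun x hx => of_decide_eq_true (List.all_eq_true.1 h4 x hx)
  right; right
  intro b hbM hbl
  by_cases hbe : b = e
  · subst hbe
    refine ⟨m', ?_, hm.2.1, hm.2.2, ?_⟩
    · rw [List.mem_toFinset]; exact hm.1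
    · rw [List.toFinset_cons] at hnext
      exact hnext
  · have hd : Disjoint Lm.toFinset l.toFinset := by
      rw [Finset.disjoint_left]
      intro x hx1 hx2
      rw [List.mem_toFinset] at hx1 hx2
      exact hdis x hx2 hx1
    obtain ⟨m, g1, g2, g3, g4⟩ := reply_of_chk ht (M := Lm.toFinset) (B := l.toFinset) h5 hne
      (by
        rintro x ⟨a1, a2, a3⟩
        rw [tb_maskOf hLm a1 a2] at a3
        exact List.mem_toFinset.2 a3)
      (by
        rintro x hx ⟨a1, a2, a3⟩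
        rw [tb_freeOf hl a1 a2] at a3
        exact a3.2.2 (List.mem_toFinset.1 hx))
      hd (b := b) hbM
      (by
        rintro ⟨a1, a2, a3⟩
        refine ⟨a1, a2, ?_⟩
        rw [tb_freeOf hl a1 a2] at a3
        rw [tb_freeOf hel a1 a2, List.mem_cons, not_or]
        exact ⟨a3.1, a3.2.1, hbe, a3.2.2⟩)
    refine ⟨m, g1, ?_, g3, WL.of_WB g4 ?_⟩
    · intro hml
      exact g2 (List.mem_toFinset.2 hml)
    · ext x
      simp only [Finset.mem_insert, List.mem_toFinset, List.mem_append, List.mem_singleton]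
      tauto

theorem Preserves.trans {e₁ e₂ : Cell ≃ Cell} (h₁ : Preserves e₁) (h₂ : Preserves e₂) :
    Preserves (e₁.trans e₂) := by
  intro C hC
  have h := h₂ _ (h₁ _ hC)
  rw [Finset.image_image] at h
  exact h

theorem isSignedPerm_sx : IsSignedPerm sx :=
  ⟨-1, 1, Or.inr rfl, Or.inl rfl, Or.inl fun p => by simp [sx]⟩

theorem isSignedPerm_sy : IsSignedPerm sy :=
  ⟨1, -1, Or.inl rfl, Or.inr rfl, Or.inl fun p => by simp [sy]⟩

theorem isSignedPerm_sw : IsSignedPerm sw :=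
  ⟨1, 1, Or.inl rfl, Or.inl rfl, Or.inr fun p => by simp [sw]⟩

theorem isSignedPerm_sw_sy : IsSignedPerm (sw.trans sy) :=
  ⟨1, -1, Or.inl rfl, Or.inr rfl, Or.inr fun p => by simp [sw, sy]⟩

/-- every cell adjacent to the origin is the image of `(1, 0)` -/
theorem exists_sym_of_adjacent {b : Cell} (h : |b.1| + |b.2| = 1) :
    ∃ e : Cell ≃ Cell, Preserves e ∧ IsSignedPerm e ∧ e (0, 0) = (0, 0) ∧ e (1, 0) = b := by
  have hb : b = (1, 0) ∨ b = (-1, 0) ∨ b = (0, 1) ∨ b = (0, -1) := by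
    obtain ⟨x, y⟩ := b
    simp only at h
    simp only [Prod.mk.injEq]
    rcases abs_cases x with ⟨h1, h2⟩ | ⟨h1, h2⟩ <;> rcases abs_cases y with ⟨h3, h4⟩ | ⟨h3, h4⟩ <;>
      rw [h1, h3] at h <;> omega
  rcases hb with rfl | rfl | rfl | rfl
  · exact ⟨sy, preserves_sy, isSignedPerm_sy, rfl, rfl⟩
  · exact ⟨sx, preserves_sx, isSignedPerm_sx, rfl, rfl⟩
  · exact ⟨sw, preserves_sw, isSignedPerm_sw, rfl, rfl⟩
  · exact ⟨sw.trans sy, preserves_sw.trans preserves_sy, isSignedPerm_sw_sy, rfl, rfl⟩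

end Vale.Agent.Snaky
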