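import Vale.Agent.Snaky.Check

/-!
# Soundness of the checker
-/

namespace Vale.Agent.Snaky

open Set

theorem Win.mono_sets {n : ℕ} {R Z R' Z' : Set Cell} (hR : R ⊆ R') (hZ : Z ⊆ Z') (h : Win n R Z) :
    Win n R' Z' :=
  fun M B h1 h2 h3 => h M B h1 (hR.trans h2) (h3.mono_left hZ)

/-- the copy of Snaky `t + R(S)`, with `R (x, y) = (a x, b y)` or `(a y, b x)` -/
def cp (a b : ℤ) (s : Bool) (t : Cell) : Finset Cell :=
  snaky.image (fun p => t + (if s then (a * p.2, b * p.1) else (a * p.1, b * p.2)))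

theorem isCopy_cp {a b : ℤ} (ha : a = 1 ∨ a = -1) (hb : b = 1 ∨ b = -1) (s : Bool) (t : Cell) :
    IsCopy (cp a b s t) := by
  cases s
  · exact ⟨t, fun p => (a * p.1, b * p.2), ⟨a, b, ha, hb, Or.inl fun p => rfl⟩, by simp [cp]⟩
  · exact ⟨t, fun p => (a * p.2, b * p.1), ⟨a, b, ha, hb, Or.inr fun p => rfl⟩, by simp [cp]⟩

/-- decidable membership test -/
def memB (m : ℕ) (p : Cell) : Bool :=
  decide (0 ≤ p.1) && decide (p.1 < 32) && decide (0 ≤ p.1 + 32 * p.2) &&
    m.testBit (p.1 + 32 * p.2).toNat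

theorem mem_decode_of_memB {m : ℕ} {p : Cell} (h : memB m p = true) : p ∈ decode m := by
  simp only [memB, Bool.and_eq_true, decide_eq_true_eq] at h
  exact ⟨h.1.1.1, h.1.1.2, h.1.2, h.2⟩

theorem cond_or {b c : Bool} (h : cond b true c = true) : b = true ∨ c = true := by
  cases b
  · right; exact h
  · left; rfl

theorem cond_and {b c : Bool} (h : cond b c false = true) : b = true ∧ c = true := by
  cases b
  · exact absurd h (by simp)
  · exact ⟨rfl, h⟩

theorem isCopyMask_spec {c : ℕ} (h : isCopyMask c = true) :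
    ∃ C : Finset Cell, IsCopy C ∧ (C : Set Cell) ⊆ decode c := by
  have key : ∀ (a b : ℤ) (s : Bool) (t : Cell) (m : ℕ), (a = 1 ∨ a = -1) → (b = 1 ∨ b = -1) →
      (∀ p ∈ cp a b s t, memB m p = true) →
      ∃ C : Finset Cell, IsCopy C ∧ (C : Set Cell) ⊆ decode m := by
    intro a b s t m ha hb hm
    exact ⟨cp a b s t, isCopy_cp ha hb s t, fun p hp => mem_decode_of_memB (hm p (by simpa using hp))⟩
  unfold isCopyMask at h
  rcases cond_or h with h | h
  · have := Nat.eq_of_beq_eq_true h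
    subst this
    exact key 1 1 false (14, 6) _ (by norm_num) (by norm_num) (by decide +kernel)
  rcases cond_or h with h | h
  · have := Nat.eq_of_beq_eq_true h
    subst this
    exact key (-1) (-1) false (18, 7) _ (by norm_num) (by norm_num) (by decide +kernel)
  rcases cond_or h with h | h
  · have := Nat.eq_of_beq_eq_true h
    subst this
    exact key (-1) (-1) true (15, 10) _ (by norm_num) (by norm_num) (by decide +kernel)
  rcases cond_or h with h | h
  · have := Nat.eq_of_beq_eq_true h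
    subst this
    exact key 1 1 true (14, 6) _ (by norm_num) (by norm_num) (by decide +kernel)
  rcases cond_or h with h | h
  · have := Nat.eq_of_beq_eq_true h
    subst this
    exact key (-1) 1 false (18, 6) _ (by norm_num) (by norm_num) (by decide +kernel)
  rcases cond_or h with h | h
  · have := Nat.eq_of_beq_eq_true h
    subst this
    exact key 1 (-1) true (14, 10) _ (by norm_num) (by norm_num) (by decide +kernel)
  rcases cond_or h with h | h
  · have := Nat.eq_of_beq_eq_true h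
    subst this
    exact key (-1) 1 true (15, 6) _ (by norm_num) (by norm_num) (by decide +kernel)
  have := Nat.eq_of_beq_eq_true h
  subst this
  exact key 1 (-1) false (14, 7) _ (by norm_num) (by norm_num) (by decide +kernel)


/-- the cell with index `m` in the shifted frame -/
def mcell (m : ℕ) : Cell := (((m : ℤ) - 512) % 32, ((m : ℤ) - 512) / 32)

theorem exists_shift {s : ℕ}
    (h : cond (Nat.ble (Nat.mod s 32) 8) true (Nat.ble 24 (Nat.mod s 32)) = true) :
    ∃ t : Cell, -8 ≤ t.1 ∧ t.1 ≤ 8 ∧ t.1 + 32 * t.2 = (s : ℤ) - 512 := by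
  have h' : s % 32 ≤ 8 ∨ 24 ≤ s % 32 := by
    rcases cond_or h with h | h
    · left; exact Nat.le_of_ble_eq_true h
    · right; exact Nat.le_of_ble_eq_true h
  rcases h' with h' | h'
  · refine ⟨((s % 32 : ℕ), ((s : ℤ) - 512 - (s % 32 : ℕ)) / 32), ?_, ?_, ?_⟩
    · show (-8 : ℤ) ≤ ((s % 32 : ℕ) : ℤ)
      omega
    · show ((s % 32 : ℕ) : ℤ) ≤ 8
      omega
    · show ((s % 32 : ℕ) : ℤ) + 32 * (((s : ℤ) - 512 - (s % 32 : ℕ)) / 32) = (s : ℤ) - 512
      omega
  · refine ⟨(((s % 32 : ℕ) : ℤ) - 32, ((s : ℤ) - 512 - (((s % 32 : ℕ) : ℤ) - 32)) / 32), ?_, ?_, ?_⟩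
    · show (-8 : ℤ) ≤ ((s % 32 : ℕ) : ℤ) - 32
      omega
    · show ((s % 32 : ℕ) : ℤ) - 32 ≤ 8
      omega
    · show (((s % 32 : ℕ) : ℤ) - 32) + 32 * (((s : ℤ) - 512 - (((s % 32 : ℕ) : ℤ) - 32)) / 32)
        = (s : ℤ) - 512
      omega

/-- the bad claims of Breaker for an answer -/
def bad (qZ m s : ℕ) : ℕ := Nat.lor (Nat.shiftLeft qZ s) (Nat.shiftLeft 1 m)

/-- `Pat` data with positions in the columns of the board -/
def InCols (m : ℕ) : Prop := ∀ j, tb m j → 8 ≤ j % 32 ∧ j % 32 < 24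

theorem inCols_of_sub {a : ℕ} (h : Nat.lor a cols = cols) : InCols a :=
  fun _ hj => tb_cols (tb_of_sub h hj)

theorem mem_decode_iff {m : ℕ} {p : Cell} : p ∈ decode m ↔ 0 ≤ p.1 ∧ p.1 < 32 ∧
    tb m (p.1 + 32 * p.2) := Iff.rfl

/-- a shifted pattern as a translate -/
theorem image_decode {q s : ℕ} (hq : InCols q) {t : Cell} (h1 : -8 ≤ t.1) (h2 : t.1 ≤ 8)
    (h3 : t.1 + 32 * t.2 = (s : ℤ) - 512) {p : Cell} (hp : p ∈ Equiv.addLeft t '' decode q) :
    0 ≤ p.1 ∧ p.1 < 32 ∧ tb (Nat.shiftLeft q s) (p.1 + 32 * p.2 + 512) := by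
  obtain ⟨x, ⟨hx1, hx2, hx3⟩, rfl⟩ := hp
  have h4 := hq _ hx3
  have e1 : (Equiv.addLeft t x).1 = t.1 + x.1 := rfl
  have e2 : (Equiv.addLeft t x).2 = t.2 + x.2 := rfl
  rw [e1, e2]
  refine ⟨by omega, by omega, ?_⟩
  rw [tb_shiftLeft]
  have e3 : t.1 + x.1 + 32 * (t.2 + x.2) + 512 - (s : ℤ) = x.1 + 32 * x.2 := by linarith
  rw [e3]
  exact hx3

/-- what one checked answer gives -/
theorem chkAns_spec {qn qR qZ n R F m s : ℕ}
    (h : chkAns qn qR qZ n (Nat.shiftLeft R 512) (Nat.shiftLeft F 512) m s = true)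
    (hcR : InCols qR) (hcZ : InCols qZ) (hw : Win qn (decode qR) (decode qZ)) :
    qn < n ∧ ∃ R' Z' : Set Cell, (mcell m ∈ decode F) ∧ R' ⊆ insert (mcell m) (decode R) ∧
      Z' ⊆ decode F ∧ Win qn R' Z' ∧
      ∀ b : Cell, ¬ (0 ≤ b.1 ∧ b.1 < 32 ∧ tb (bad qZ m s) (b.1 + 32 * b.2 + 512)) →
        mcell m ≠ b ∧ b ∉ Z' := by
  unfold chkAns at h
  obtain ⟨h1, h⟩ := cond_and h
  obtain ⟨h2, h⟩ := cond_and h
  obtain ⟨h3, h4⟩ := cond_and h
  have h1 : qn < n := Nat.le_of_ble_eq_true h1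
  obtain ⟨t, ht1, ht2, ht3⟩ := exists_shift h2
  have h3 := Nat.eq_of_beq_eq_true h3
  have h4 := Nat.eq_of_beq_eq_true h4
  have hmc : (mcell m).1 = ((m : ℤ) - 512) % 32 := rfl
  have hmc2 : (mcell m).2 = ((m : ℤ) - 512) / 32 := rfl
  have hmidx : (mcell m).1 + 32 * (mcell m).2 = (m : ℤ) - 512 := by rw [hmc, hmc2]; omega
  refine ⟨h1, Equiv.addLeft t '' decode qR, Equiv.addLeft t '' decode qZ, ?_, ?_, ?_, ?_, ?_⟩
  · refine ⟨by rw [hmc]; omega, by rw [hmc]; omega, ?_⟩
    rw [hmidx]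
    have : tb (Nat.shiftLeft F 512) (m : ℤ) :=
      tb_of_sub h4 (tb_or.2 (Or.inr (tb_one_shiftLeft.2 rfl)))
    rw [tb_shiftLeft] at this
    exact this
  · intro p hp
    obtain ⟨hp1, hp2, hp3⟩ := image_decode hcR ht1 ht2 ht3 hp
    have h5 := tb_of_sub h3 hp3
    rw [tb_or, tb_shiftLeft, tb_one_shiftLeft] at h5
    rcases h5 with h5 | h5
    · right
      refine ⟨hp1, hp2, ?_⟩
      have e : p.1 + 32 * p.2 + 512 - ((512 : ℕ) : ℤ) = p.1 + 32 * p.2 := by push_cast; ring
      rw [e] at h5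
      exact h5
    · left
      have e1 : p.1 = (mcell m).1 := by rw [hmc]; omega
      have e2 : p.2 = (mcell m).2 := by rw [hmc2]; omega
      exact Prod.ext e1 e2
  · intro p hp
    obtain ⟨hp1, hp2, hp3⟩ := image_decode hcZ ht1 ht2 ht3 hp
    have h5 := tb_of_sub h4 (tb_or.2 (Or.inl hp3))
    rw [tb_shiftLeft] at h5
    refine ⟨hp1, hp2, ?_⟩
    have e : p.1 + 32 * p.2 + 512 - ((512 : ℕ) : ℤ) = p.1 + 32 * p.2 := by push_cast; ring
    rw [e] at h5
    exact h5
  · exact hw.image (preserves_add t)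
  · intro b hb
    constructor
    · rintro rfl
      apply hb
      refine ⟨by rw [hmc]; omega, by rw [hmc]; omega, ?_⟩
      unfold bad
      rw [tb_or]
      right
      rw [tb_one_shiftLeft, hmidx]
      ring
    · intro hbZ
      obtain ⟨hp1, hp2, hp3⟩ := image_decode hcZ ht1 ht2 ht3 hbZ
      exact hb ⟨hp1, hp2, tb_or.2 (Or.inl hp3)⟩

theorem chkList_cons {g : ℕ → Option Pat} {n R' F' m k s : ℕ} {T : Ans} {acc : ℕ}
    (h : chkList g n R' F' (Ans.cons m k s T) acc = true) :
    ∃ qn qR qZ qT, g k = some (Pat.mk qn qR qZ qT) ∧ chkAns qn qR qZ n R' F' m s = true ∧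
      chkList g n R' F' T (Nat.land acc (bad qZ m s)) = true := by
  have h' : Option.rec (motive := fun _ => Bool) false
        (fun q => Pat.rec (motive := fun _ => Bool)
          (fun qn qR qZ _ => cond (chkAns qn qR qZ n R' F' m s)
            (chkList g n R' F' T (Nat.land acc (bad qZ m s))) false) q)
        (g k) = true := h
  cases hg : g k with
  | none => rw [hg] at h'; exact absurd h' (by simp)
  | some q =>
      rw [hg] at h'
      obtain ⟨qn, qR, qZ, qT⟩ := q
      have h2 := cond_and h'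
      exact ⟨qn, qR, qZ, qT, rfl, h2.1, h2.2⟩

theorem chkList_spec {g : ℕ → Option Pat} {n R' F' : ℕ} {T : Ans} : ∀ {acc : ℕ},
    chkList g n R' F' T acc = true → ∀ j, ¬ tb R' j → tb acc j →
    ∃ m k s qn qR qZ qT, g k = some (Pat.mk qn qR qZ qT) ∧ chkAns qn qR qZ n R' F' m s = true ∧
      ¬ tb (bad qZ m s) j := by
  induction T with
  | nil =>
      intro acc h j hR ha
      have h' : Nat.beq (Nat.lor acc R') R' = true := h
      exact absurd (tb_of_sub (Nat.eq_of_beq_eq_true h') ha) hR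
  | cons m k s T ih =>
      intro acc h j hR ha
      obtain ⟨qn, qR, qZ, qT, h1, h2, h3⟩ := chkList_cons h
      by_cases hb : tb (bad qZ m s) j
      · exact ih h3 j hR (tb_and.2 ⟨ha, hb⟩)
      · exact ⟨m, k, s, qn, qR, qZ, qT, h1, h2, hb⟩

/-- the data of a pattern that passed the check -/
theorem chkPat_spec {g : ℕ → Option Pat} {n R Z : ℕ} {T : Ans}
    (h : chkPat g (Pat.mk n R Z T) = true) :
    InCols R ∧ InCols Z ∧ InCols (Nat.lor R Z) ∧ (isCopyMask R = true ∨
      ∀ j, ¬ tb R j →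
        ∃ m k s qn qR qZ qT, g k = some (Pat.mk qn qR qZ qT) ∧
          chkAns qn qR qZ n (Nat.shiftLeft R 512) (Nat.shiftLeft (Nat.lor R Z) 512) m s = true ∧
          ¬ tb (bad qZ m s) (j + 512)) := by
  have h' : cond (Nat.beq (Nat.lor (Nat.lor R Z) cols) cols)
      (Ans.rec (motive := fun _ => Bool) (isCopyMask R)
        (fun _ _ _ _ _ => chkList g n (Nat.shiftLeft R 512)
          (Nat.shiftLeft (Nat.lor R Z) 512) T (Nat.shiftLeft (Nat.lor R Z) 512)) T) false = true := h
  obtain ⟨h1, h2⟩ := cond_and h'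
  have h1 := inCols_of_sub (Nat.eq_of_beq_eq_true h1)
  refine ⟨fun j hj => h1 j (tb_or.2 (Or.inl hj)), fun j hj => h1 j (tb_or.2 (Or.inr hj)), h1, ?_⟩
  cases T with
  | nil => left; exact h2
  | cons m k s T =>
      right
      have h3 : chkList g n (Nat.shiftLeft R 512)
          (Nat.shiftLeft (Nat.lor R Z) 512) (Ans.cons m k s T)
            (Nat.shiftLeft (Nat.lor R Z) 512) = true := h2
      intro j hj
      by_cases hF : tb (Nat.shiftLeft (Nat.lor R Z) 512) (j + 512)
      · refine chkList_spec h3 (j + 512) ?_ hF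
        rw [tb_shiftLeft]
        have e : j + 512 - ((512 : ℕ) : ℤ) = j := by push_cast; ring
        rw [e]
        exact hj
      · obtain ⟨qn, qR, qZ, qT, h4, h5, -⟩ := chkList_cons h3
        refine ⟨m, k, s, qn, qR, qZ, qT, h4, h5, ?_⟩
        intro hb
        apply hF
        unfold chkAns at h5
        obtain ⟨-, h6⟩ := cond_and h5
        obtain ⟨-, h6⟩ := cond_and h6
        obtain ⟨-, h6⟩ := cond_and h6
        exact tb_of_sub (Nat.eq_of_beq_eq_true h6) hb

theorem sound {t : Tr} (ht : t.all (chkPat t.get) = true) :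
    ∀ n k qn qR qZ qT, qn < n → t.get k = some (Pat.mk qn qR qZ qT) →
      Win qn (decode qR) (decode qZ) := by
  intro n
  induction n with
  | zero => intro k qn qR qZ qT h; exact absurd h (by omega)
  | succ n ih =>
      intro k qn qR qZ qT hn hk
      obtain ⟨hcR, hcZ, -, hT⟩ := chkPat_spec (Tr.all_get ht hk)
      rcases hT with hT | hT
      · obtain ⟨C, hC, hCd⟩ := isCopyMask_spec hT
        exact ((win_of_copy hC).mono (Nat.zero_le _)).mono_sets hCd (Set.empty_subset _)
      · have hF : decode qR ∪ decode qZ = decode (Nat.lor qR qZ) := by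
          ext p
          simp only [Set.mem_union, mem_decode_iff, tb_or]
          tauto
        have hpos : 0 < qn := by
          have hne : ∃ j : ℤ, ¬ tb qR j := ⟨-1, fun h => absurd h.1 (by norm_num)⟩
          obtain ⟨j, hj⟩ := hne
          obtain ⟨m, k, s, pn, pR, pZ, pT, -, h2, -⟩ := hT j hj
          unfold chkAns at h2
          have := Nat.le_of_ble_eq_true (cond_and h2).1
          omega
        obtain ⟨n', rfl⟩ : ∃ n', qn = n' + 1 := ⟨qn - 1, by omega⟩
        apply win_step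
        intro b hb
        have main : ∀ j : ℤ, ¬ tb qR j → (0 ≤ b.1 → b.1 < 32 → b.1 + 32 * b.2 = j) →
            ∃ m R' Z', m ≠ b ∧ b ∉ Z' ∧ m ∈ decode qR ∪ decode qZ ∧ R' ⊆ insert m (decode qR) ∧
              Z' ⊆ decode qR ∪ decode qZ ∧ Win n' R' Z' := by
          intro j hj hbj
          obtain ⟨m, k, s, pn, pR, pZ, pT, h1, h2, h3⟩ := hT j hj
          have hlt : pn < n' + 1 := by
            have h2' := h2
            unfold chkAns at h2'
            exact Nat.le_of_ble_eq_true (cond_and h2').1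
          have hpw := ih k pn pR pZ pT (by omega) h1
          obtain ⟨hpR, hpZ, -, -⟩ := chkPat_spec (Tr.all_get ht h1)
          obtain ⟨-, R', Z', g1, g2, g3, g4, g5⟩ := chkAns_spec h2 hpR hpZ hpw
          obtain ⟨g6, g7⟩ := g5 b (by
            rintro ⟨b1, b2, b3⟩
            rw [hbj b1 b2] at b3
            exact h3 b3)
          refine ⟨mcell m, R', Z', g6, g7, ?_, g2, ?_, g4.mono (by omega)⟩
          · rw [hF]; exact g1
          · rw [hF]; exact g3
        by_cases hb2 : 0 ≤ b.1 ∧ b.1 < 32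
        · refine main (b.1 + 32 * b.2) ?_ (fun _ _ => rfl)
          intro h
          exact hb ⟨hb2.1, hb2.2, h⟩
        · refine main (-1) (fun h => absurd h.1 (by norm_num)) ?_
          intro h1 h2
          exact absurd ⟨h1, h2⟩ hb2

end Vale.Agent.Snaky
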